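import Vale.Agent.H40.KTV.GDefs
import Vale.Agent.H12.PairFibre

/-!
Pair fibres of simple graphs are Johnson fibres.

For `u ≠ v` and a graph `G0`, the graphs `H` with the same degrees as `G0` that agree with `G0`
on every vertex pair avoiding `u` and `v` are in bijection with the `k`-subsets of the free set
`A` (the vertices adjacent to exactly one of `u`, `v`), via `H ↦ {y ∈ A | H.Adj u y}`; the
switch of the block `{u, v} x {w, z}` acts on the subsets by exchanging `w` and `z`.
-/

namespace Vale.Agent.H86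

open Finset SimpleGraph
open scoped Classical
open Vale.Agent.H40.KTV
open Vale.Agent.H12.Switch (swap swap_adj swap_degree swap_agree_off degree_eq_nb nb)

variable {V : Type} [Fintype V]

/-- splitting a count at two distinguished points -/
theorem card_filter_split (p : V → Prop) (u v : V) (huv : u ≠ v) :
    (univ.filter p).card = (univ.filter (fun x => p x ∧ x ≠ u ∧ x ≠ v)).card
      + (if p u then 1 else 0) + (if p v then 1 else 0) := by
  rw [Finset.card_filter, Finset.card_filter]
  have h : ∀ x : V, (if p x then (1 : ℕ) else 0) = (if p x ∧ x ≠ u ∧ x ≠ v then 1 else 0)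
      + (if x = u then (if p u then 1 else 0) else 0)
      + (if x = v then (if p v then 1 else 0) else 0) := by
    intro x
    by_cases hxu : x = u
    · subst hxu
      have hxv : ¬ (x = v) := huv
      by_cases hp : p x <;> simp [hp, hxv]
    · by_cases hxv : x = v
      · subst hxv
        by_cases hp : p x <;> simp [hp, hxu]
      · by_cases hp : p x <;> simp [hp, hxu, hxv]
  rw [Finset.sum_congr rfl (fun x _ => h x), Finset.sum_add_distrib, Finset.sum_add_distrib,
    Finset.sum_ite_eq', Finset.sum_ite_eq']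
  simp

/-- the free set of the pair `u, v` in `G`: the vertices adjacent to exactly one of them -/
noncomputable def free (u v : V) (G : SimpleGraph V) : Finset V :=
  univ.filter (fun y => y ≠ u ∧ y ≠ v ∧ (G.Adj u y ↔ ¬ G.Adj v y))

/-- the common neighbours of `u` and `v` -/
noncomputable def both (u v : V) (G : SimpleGraph V) : Finset V :=
  univ.filter (fun y => y ≠ u ∧ y ≠ v ∧ G.Adj u y ∧ G.Adj v y)

/-- the vertices of `A` on the side of `u` -/
noncomputable def side (u : V) (A : Finset V) (H : SimpleGraph V) : Finset V :=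
  A.filter (fun y => H.Adj u y)

theorem deg_u (G : SimpleGraph V) (u v : V) (huv : u ≠ v) :
    G.degree u = (if G.Adj u v then 1 else 0) + (both u v G).card
      + (side u (free u v G) G).card := by
  rw [degree_eq_nb]
  unfold nb
  rw [card_filter_split (fun x => G.Adj u x) u v huv]
  have e1 : (univ.filter (fun x => G.Adj u x ∧ x ≠ u ∧ x ≠ v)).filter (fun x => G.Adj v x)
      = both u v G := by
    ext x
    simp only [both, mem_filter, mem_univ, true_and]
    tauto
  have e2 : (univ.filter (fun x => G.Adj u x ∧ x ≠ u ∧ x ≠ v)).filter (fun x => ¬ G.Adj v x)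
      = side u (free u v G) G := by
    ext x
    simp only [side, free, mem_filter, mem_univ, true_and]
    tauto
  have e3 := Finset.card_filter_add_card_filter_not
    (s := univ.filter (fun x => G.Adj u x ∧ x ≠ u ∧ x ≠ v)) (fun x => G.Adj v x)
  rw [e1, e2] at e3
  have e4 : ¬ G.Adj u u := G.irrefl
  simp only [e4, if_false]
  omega

theorem deg_v (G : SimpleGraph V) (u v : V) (huv : u ≠ v) :
    G.degree v = (if G.Adj u v then 1 else 0) + (both u v G).card
      + ((free u v G).filter (fun y => ¬ G.Adj u y)).card := by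
  rw [degree_eq_nb]
  unfold nb
  rw [card_filter_split (fun x => G.Adj v x) u v huv]
  have e1 : (univ.filter (fun x => G.Adj v x ∧ x ≠ u ∧ x ≠ v)).filter (fun x => G.Adj u x)
      = both u v G := by
    ext x
    simp only [both, mem_filter, mem_univ, true_and]
    tauto
  have e2 : (univ.filter (fun x => G.Adj v x ∧ x ≠ u ∧ x ≠ v)).filter (fun x => ¬ G.Adj u x)
      = (free u v G).filter (fun y => ¬ G.Adj u y) := by
    ext x
    simp only [free, mem_filter, mem_univ, true_and]
    tauto
  have e3 := Finset.card_filter_add_card_filter_not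
    (s := univ.filter (fun x => G.Adj v x ∧ x ≠ u ∧ x ≠ v)) (fun x => G.Adj u x)
  rw [e1, e2] at e3
  have e4 : ¬ G.Adj v v := G.irrefl
  have e5 : G.Adj v u ↔ G.Adj u v := G.adj_comm v u
  simp only [e4, e5, if_false]
  omega

theorem deg_y (G : SimpleGraph V) (u v y : V) (huv : u ≠ v) :
    G.degree y = (univ.filter (fun x => G.Adj y x ∧ x ≠ u ∧ x ≠ v)).card
      + (if G.Adj u y then 1 else 0) + (if G.Adj v y then 1 else 0) := by
  rw [degree_eq_nb]
  unfold nb
  rw [card_filter_split (fun x => G.Adj y x) u v huv]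
  have e1 : G.Adj y u ↔ G.Adj u y := G.adj_comm y u
  have e2 : G.Adj y v ↔ G.Adj v y := G.adj_comm y v
  simp only [e1, e2]

/-! ### Facts about one pair fibre -/

theorem rp_refl (u v : V) (G : SimpleGraph V) : RP u v G G :=
  ⟨fun _ => rfl, fun _ _ => Iff.rfl⟩

theorem rp_trans {u v : V} {G H K : SimpleGraph V} (h : RP u v G H) (k : RP u v H K) :
    RP u v G K :=
  ⟨fun x => (h.1 x).trans (k.1 x), fun e he => (h.2 e he).trans (k.2 e he)⟩

section fibre

variable {u v : V} {G0 H : SimpleGraph V}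

/-- agreement off the pair -/
theorem rp_off (h : RP u v G0 H) (x y : V) (hxu : x ≠ u) (hxv : x ≠ v) (hyu : y ≠ u)
    (hyv : y ≠ v) : G0.Adj x y ↔ H.Adj x y := by
  have h1 : s(x, y) ∉ EP u v := by
    simp only [EP, Set.mem_ofPred_eq, Sym2.mem_iff]
    rintro ((e | e) | (e | e))
    · exact hxu e.symm
    · exact hyu e.symm
    · exact hxv e.symm
    · exact hyv e.symm
  have h2 := h.2 s(x, y) h1
  rw [SimpleGraph.mem_edgeSet, SimpleGraph.mem_edgeSet] at h2
  exact h2

/-- the number of edges from `y` to the pair is constant on the fibre -/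
theorem rp_count (huv : u ≠ v) (h : RP u v G0 H) (y : V) (hyu : y ≠ u) (hyv : y ≠ v) :
    (if H.Adj u y then 1 else 0) + (if H.Adj v y then 1 else 0)
      = (if G0.Adj u y then 1 else 0) + (if G0.Adj v y then (1 : ℕ) else 0) := by
  have e : univ.filter (fun x => H.Adj y x ∧ x ≠ u ∧ x ≠ v)
      = univ.filter (fun x => G0.Adj y x ∧ x ≠ u ∧ x ≠ v) := by
    ext x
    simp only [mem_filter, mem_univ, true_and]
    constructor
    · rintro ⟨h1, h2, h3⟩
      exact ⟨(rp_off h y x hyu hyv h2 h3).2 h1, h2, h3⟩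
    · rintro ⟨h1, h2, h3⟩
      exact ⟨(rp_off h y x hyu hyv h2 h3).1 h1, h2, h3⟩
  have d1 := deg_y H u v y huv
  have d2 := deg_y G0 u v y huv
  have d3 := h.1 y
  rw [e] at d1
  omega

theorem rp_both_iff (huv : u ≠ v) (h : RP u v G0 H) (y : V) (hyu : y ≠ u) (hyv : y ≠ v) :
    (H.Adj u y ∧ H.Adj v y) ↔ (G0.Adj u y ∧ G0.Adj v y) := by
  have hc := rp_count huv h y hyu hyv
  by_cases h1 : H.Adj u y <;> by_cases h2 : H.Adj v y <;> by_cases h3 : G0.Adj u y <;>
    by_cases h4 : G0.Adj v y <;> simp [h1, h2, h3, h4] at hc ⊢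

theorem rp_free_iff (huv : u ≠ v) (h : RP u v G0 H) (y : V) (hyu : y ≠ u) (hyv : y ≠ v) :
    (H.Adj u y ↔ ¬ H.Adj v y) ↔ (G0.Adj u y ↔ ¬ G0.Adj v y) := by
  have hc := rp_count huv h y hyu hyv
  by_cases h1 : H.Adj u y <;> by_cases h2 : H.Adj v y <;> by_cases h3 : G0.Adj u y <;>
    by_cases h4 : G0.Adj v y <;> simp [h1, h2, h3, h4] at hc ⊢

theorem rp_free (huv : u ≠ v) (h : RP u v G0 H) : free u v H = free u v G0 := by
  ext y
  simp only [free, mem_filter, mem_univ, true_and]
  constructor
  · rintro ⟨a, b, c⟩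
    exact ⟨a, b, (rp_free_iff huv h y a b).1 c⟩
  · rintro ⟨a, b, c⟩
    exact ⟨a, b, (rp_free_iff huv h y a b).2 c⟩

theorem rp_both (huv : u ≠ v) (h : RP u v G0 H) : both u v H = both u v G0 := by
  ext y
  simp only [both, mem_filter, mem_univ, true_and]
  constructor
  · rintro ⟨a, b, c⟩
    exact ⟨a, b, (rp_both_iff huv h y a b).1 c⟩
  · rintro ⟨a, b, c⟩
    exact ⟨a, b, (rp_both_iff huv h y a b).2 c⟩

/-- the side of `u` has the same size on the whole fibre, and the pair itself is frozen -/
theorem rp_card (huv : u ≠ v) (h : RP u v G0 H) :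
    (side u (free u v G0) H).card = (side u (free u v G0) G0).card ∧
      (H.Adj u v ↔ G0.Adj u v) := by
  have hf := rp_free huv h
  have hb := rp_both huv h
  have a1 := deg_u H u v huv
  have a2 := deg_v H u v huv
  have b1 := deg_u G0 u v huv
  have b2 := deg_v G0 u v huv
  have c1 := Finset.card_filter_add_card_filter_not (s := free u v H) (fun y => H.Adj u y)
  have c2 := Finset.card_filter_add_card_filter_not (s := free u v G0) (fun y => G0.Adj u y)
  have d1 := h.1 u
  have d2 := h.1 v
  rw [hf, hb] at a1 a2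
  rw [hf] at c1
  unfold side at *
  by_cases e1 : H.Adj u v <;> by_cases e2 : G0.Adj u v <;>
    simp only [e1, e2, if_true, if_false, iff_self, iff_true, iff_false,
      not_true_eq_false, and_true, and_false] at a1 a2 b1 b2 ⊢ <;> omega

theorem rp_adj_u (huv : u ≠ v) (h : RP u v G0 H) (y : V) (hyu : y ≠ u) (hyv : y ≠ v) :
    H.Adj u y ↔ (y ∈ both u v G0 ∨ y ∈ side u (free u v G0) H) := by
  have hb := rp_both_iff huv h y hyu hyv
  have hf := rp_free_iff huv h y hyu hyv
  simp only [both, side, free, mem_filter, mem_univ, true_and]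
  tauto

theorem rp_adj_v (huv : u ≠ v) (h : RP u v G0 H) (y : V) (hyu : y ≠ u) (hyv : y ≠ v) :
    H.Adj v y ↔ (y ∈ both u v G0 ∨ (y ∈ free u v G0 ∧ y ∉ side u (free u v G0) H)) := by
  have hb := rp_both_iff huv h y hyu hyv
  have hf := rp_free_iff huv h y hyu hyv
  simp only [both, side, free, mem_filter, mem_univ, true_and]
  tauto

end fibre

/-! ### Injectivity of the side map on a fibre -/

theorem rp_inj {u v : V} (huv : u ≠ v) {G0 H H' : SimpleGraph V} (h : RP u v G0 H)
    (h' : RP u v G0 H') (hs : side u (free u v G0) H = side u (free u v G0) H') : H = H' := by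
  have hu : ∀ {K K' : SimpleGraph V}, RP u v G0 K → RP u v G0 K' →
      side u (free u v G0) K = side u (free u v G0) K' → ∀ y, K.Adj u y → K'.Adj u y := by
    intro K K' k k' ks y hy
    have hyu : y ≠ u := fun e => K.irrefl (e ▸ hy)
    by_cases hyv : y = v
    · rw [hyv] at hy ⊢
      exact (rp_card huv k').2.2 ((rp_card huv k).2.1 hy)
    · rw [rp_adj_u huv k' y hyu hyv, ← ks]
      exact (rp_adj_u huv k y hyu hyv).1 hy
  have hv : ∀ {K K' : SimpleGraph V}, RP u v G0 K → RP u v G0 K' →
      side u (free u v G0) K = side u (free u v G0) K' → ∀ y, K.Adj v y → K'.Adj v y := by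
    intro K K' k k' ks y hy
    have hyv : y ≠ v := fun e => K.irrefl (e ▸ hy)
    by_cases hyu : y = u
    · rw [hyu] at hy ⊢
      exact ((rp_card huv k').2.2 ((rp_card huv k).2.1 hy.symm)).symm
    · rw [rp_adj_v huv k' y hyu hyv, ← ks]
      exact (rp_adj_v huv k y hyu hyv).1 hy
  have gen : ∀ {K K' : SimpleGraph V}, RP u v G0 K → RP u v G0 K' →
      side u (free u v G0) K = side u (free u v G0) K' → ∀ x y, K.Adj x y → K'.Adj x y := by
    intro K K' k k' ks x y hxy
    by_cases hxu : x = u
    · rw [hxu] at hxy ⊢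
      exact hu k k' ks y hxy
    by_cases hxv : x = v
    · rw [hxv] at hxy ⊢
      exact hv k k' ks y hxy
    by_cases hyu : y = u
    · rw [hyu] at hxy ⊢
      exact (hu k k' ks x hxy.symm).symm
    by_cases hyv : y = v
    · rw [hyv] at hxy ⊢
      exact (hv k k' ks x hxy.symm).symm
    exact (rp_off k' x y hxu hxv hyu hyv).1 ((rp_off k x y hxu hxv hyu hyv).2 hxy)
  apply SimpleGraph.ext
  funext x y
  exact propext ⟨gen h h' hs x y, gen h' h hs.symm x y⟩

/-! ### The switch involution of a block, inside a pair fibre -/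

omit [Fintype V] in
theorem T_eq_of_alt (u v w z : V) (H : SimpleGraph V) (h1 : H.Adj u w) (h2 : H.Adj v z)
    (h3 : ¬ H.Adj u z) (h4 : ¬ H.Adj v w) : T u v w z H = swap H u w z v := by
  unfold T
  rw [if_pos ⟨h1, h2, h3, h4⟩]

theorem rp_swap (u v w z : V) (H : SimpleGraph V) (h1 : H.Adj u w) (h2 : H.Adj v z)
    (h3 : ¬ H.Adj u z) (h4 : ¬ H.Adj v w) (huz : u ≠ z) (hwv : w ≠ v) :
    RP u v H (swap H u w z v) := by
  refine ⟨fun x => (swap_degree H u w z v h1 h2.symm h3 (fun h => h4 h.symm) huz hwv x).symm, ?_⟩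
  intro e
  induction e using Sym2.ind with
  | _ x y =>
    intro he
    simp only [EP, Set.mem_ofPred_eq, Sym2.mem_iff, not_or] at he
    rw [SimpleGraph.mem_edgeSet, SimpleGraph.mem_edgeSet]
    exact (Vale.Agent.H12.Switch.swap_agree_off H u w z v x y (Ne.symm he.1.1) (Ne.symm he.2.1)
      (Ne.symm he.1.2) (Ne.symm he.2.2)).symm

/-- the switch of a block stays in the pair fibre -/
theorem rp_T (u v w z : V) (H : SimpleGraph V) (hd : Dist4 u v w z) :
    RP u v H (T u v w z H) := by
  obtain ⟨_, huw, huz, hvw, hvz, _⟩ := hd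
  unfold T
  split_ifs with h1 h2
  · exact rp_swap u v w z H h1.1 h1.2.1 h1.2.2.1 h1.2.2.2 huz hvw.symm
  · exact rp_swap u v z w H h2.1 h2.2.1 h2.2.2.1 h2.2.2.2 huw hvz.symm
  · exact rp_refl u v H

omit [Fintype V] in
/-- the switch moves exactly the graphs whose block is a permutation pattern -/
theorem T_ne_iff_perm (u v w z : V) (H : SimpleGraph V) (hd : Dist4 u v w z) :
    T u v w z H ≠ H ↔ Perm u v w z H := by
  obtain ⟨_, huw, huz, _, _, _⟩ := hd
  unfold T Perm
  by_cases h1 : H.Adj u w ∧ H.Adj v z ∧ ¬ H.Adj u z ∧ ¬ H.Adj v w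
  · rw [if_pos h1]
    refine ⟨fun _ => Or.inl h1, fun _ heq => ?_⟩
    have h5 : (swap H u w z v).Adj u z := (swap_adj H u w z v u z).2 (Or.inr ⟨Or.inl rfl, huz⟩)
    rw [heq] at h5
    exact h1.2.2.1 h5
  · rw [if_neg h1]
    by_cases h2 : H.Adj u z ∧ H.Adj v w ∧ ¬ H.Adj u w ∧ ¬ H.Adj v z
    · rw [if_pos h2]
      refine ⟨fun _ => Or.inr h2, fun _ heq => ?_⟩
      have h5 : (swap H u z w v).Adj u w := (swap_adj H u z w v u w).2 (Or.inr ⟨Or.inl rfl, huw⟩)
      rw [heq] at h5
      exact h2.2.2.1 h5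
    · rw [if_neg h2]
      refine ⟨fun h => absurd rfl h, fun h => ?_⟩
      rcases h with h | h
      · exact absurd h h1
      · exact absurd h h2

/-- adjacency at `u` after the switch `uw, zv -> uz, wv` -/
theorem swap_adj_u (u v w z : V) (H : SimpleGraph V) (hd : Dist4 u v w z) (y : V) (hyu : y ≠ u)
    (hyv : y ≠ v) : (swap H u w z v).Adj u y ↔ (H.Adj u y ∧ y ≠ w) ∨ y = z := by
  obtain ⟨huv, huw, huz, hvw, hvz, hwz⟩ := hd
  rw [swap_adj]
  simp only [Sym2.eq_iff]
  constructor
  · rintro (⟨h1, h2⟩ | ⟨h3, _⟩)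
    · exact Or.inl ⟨h1, fun e => h2 ⟨Or.inl (Or.inl ⟨trivial, e⟩), fun e' => hyu e'.symm⟩⟩
    · rcases h3 with (⟨_, e⟩ | ⟨e, _⟩) | (⟨e, _⟩ | ⟨e, _⟩)
      · exact Or.inr e
      · exact absurd e huz
      · exact absurd e huw
      · exact absurd e huv
  · rintro (⟨h1, h2⟩ | e)
    · refine Or.inl ⟨h1, ?_⟩
      rintro ⟨(⟨_, e⟩ | ⟨e, _⟩) | (⟨e, _⟩ | ⟨e, _⟩), _⟩
      · exact h2 e
      · exact huw e
      · exact huz e
      · exact huv e
    · exact Or.inr ⟨Or.inl (Or.inl ⟨trivial, e⟩), fun e' => hyu e'.symm⟩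

section fibre2

variable {u v : V} {G0 H : SimpleGraph V}

/-- on a fibre, the switch moves `H` iff both vertices are free and on different sides -/
theorem T_ne_iff (huv : u ≠ v) (h : RP u v G0 H) (w z : V) (hd : Dist4 u v w z) :
    T u v w z H ≠ H ↔ w ∈ free u v G0 ∧ z ∈ free u v G0 ∧
      ((w ∈ side u (free u v G0) H) ≠ (z ∈ side u (free u v G0) H)) := by
  rw [T_ne_iff_perm u v w z H hd, ← rp_free huv h]
  obtain ⟨_, huw, huz, hvw, hvz, hwz⟩ := hd
  have a1 : w ≠ u := huw.symm
  have a2 : w ≠ v := hvw.symm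
  have a3 : z ≠ u := huz.symm
  have a4 : z ≠ v := hvz.symm
  simp only [Perm, free, side, mem_filter, mem_univ, true_and, ne_eq, eq_iff_iff]
  tauto

/-- the exchange `w -> z` on a fibre -/
theorem side_T (huv : u ≠ v) (h : RP u v G0 H) (w z : V) (hd : Dist4 u v w z)
    (hw : w ∈ side u (free u v G0) H) (hz : z ∈ free u v G0)
    (hz' : z ∉ side u (free u v G0) H) :
    side u (free u v G0) (T u v w z H) = insert z ((side u (free u v G0) H).erase w) := by
  have hf := rp_free huv h
  have hw1 : w ∈ free u v H ∧ H.Adj u w := by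
    rw [hf]
    simpa [side] using hw
  have hz1 : z ∈ free u v H := by rw [hf]; exact hz
  have hz2 : ¬ H.Adj u z := fun hc => hz' (by simp [side, hz, hc])
  have b1 : ¬ H.Adj v w := by
    have := hw1.1
    simp only [free, mem_filter, mem_univ, true_and] at this
    exact this.2.2.1 hw1.2
  have b2 : H.Adj v z := by
    simp only [free, mem_filter, mem_univ, true_and] at hz1
    by_contra hc
    exact hz2 (hz1.2.2.2 hc)
  rw [T_eq_of_alt u v w z H hw1.2 b2 hz2 b1]
  ext y
  simp only [side, mem_filter, mem_insert, mem_erase]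
  constructor
  · rintro ⟨hy, hadj⟩
    have hy' := hy
    simp only [free, mem_filter, mem_univ, true_and] at hy'
    rcases (swap_adj_u u v w z H hd y hy'.1 hy'.2.1).1 hadj with ⟨c1, c2⟩ | c
    · exact Or.inr ⟨c2, hy, c1⟩
    · exact Or.inl c
  · rintro (e | ⟨c2, hy, c1⟩)
    · have hz3 := hz
      simp only [free, mem_filter, mem_univ, true_and] at hz3
      rw [e]
      exact ⟨hz, (swap_adj_u u v w z H hd z hz3.1 hz3.2.1).2 (Or.inr rfl)⟩
    · have hy' := hy
      simp only [free, mem_filter, mem_univ, true_and] at hy'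
      exact ⟨hy, (swap_adj_u u v w z H hd y hy'.1 hy'.2.1).2 (Or.inl ⟨c1, c2⟩)⟩

end fibre2

/-! ### Surjectivity -/

theorem rp_surj {u v : V} (huv : u ≠ v) (G0 : SimpleGraph V) (s : Finset V)
    (hsA : s ⊆ free u v G0) (hsk : s.card = (side u (free u v G0) G0).card) :
    ∃ H, RP u v G0 H ∧ side u (free u v G0) H = s := by
  have key : ∀ n : ℕ, ∀ H : SimpleGraph V, RP u v G0 H →
      (s \ side u (free u v G0) H).card = n →
      ∃ H', RP u v G0 H' ∧ side u (free u v G0) H' = s := by
    intro n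
    induction n with
    | zero =>
      intro H hH hc
      have hsub : s ⊆ side u (free u v G0) H :=
        Finset.sdiff_eq_empty_iff_subset.1 (Finset.card_eq_zero.1 hc)
      have heq := Finset.eq_of_subset_of_card_le hsub (by rw [(rp_card huv hH).1, hsk])
      exact ⟨H, hH, heq.symm⟩
    | succ n ih =>
      intro H hH hc
      obtain ⟨z, hz⟩ : (s \ side u (free u v G0) H).Nonempty :=
        Finset.card_pos.1 (by rw [hc]; exact Nat.succ_pos n)
      rw [Finset.mem_sdiff] at hz
      have hne : ¬ (side u (free u v G0) H ⊆ s) := by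
        intro hsub
        have heq := Finset.eq_of_subset_of_card_le hsub (by rw [hsk, (rp_card huv hH).1])
        exact hz.2 (heq ▸ hz.1)
      obtain ⟨w, hw, hws⟩ := Finset.not_subset.1 hne
      have hwA : w ∈ free u v G0 := (Finset.mem_filter.1 hw).1
      have hzA : z ∈ free u v G0 := hsA hz.1
      simp only [free, mem_filter, mem_univ, true_and] at hwA hzA
      have hd : Dist4 u v w z :=
        ⟨huv, hwA.1.symm, hzA.1.symm, hwA.2.1.symm, hzA.2.1.symm, fun e => hws (e ▸ hz.1)⟩
      have e1 := side_T huv hH w z hd hw (hsA hz.1) hz.2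
      apply ih (T u v w z H) (rp_trans hH (rp_T u v w z H hd))
      rw [e1]
      have e2 : s \ insert z ((side u (free u v G0) H).erase w)
          = (s \ side u (free u v G0) H).erase z := by
        ext x
        simp only [mem_sdiff, mem_insert, mem_erase, not_or, not_and]
        constructor
        · rintro ⟨hx, hxz, hx2⟩
          exact ⟨hxz, hx, hx2 (fun e => hws (e ▸ hx))⟩
        · rintro ⟨hxz, hx, hx2⟩
          exact ⟨hx, hxz, fun _ => hx2⟩
      rw [e2, Finset.card_erase_of_mem (Finset.mem_sdiff.2 hz), hc]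
      rfl
  exact key _ G0 (rp_refl u v G0) rfl

/-! ### The fibre model -/

/-- Every pair fibre is a Johnson fibre: the side map is a bijection onto the `k`-subsets of the
free set, and the switch of a block exchanges two free vertices on different sides. -/
theorem fibre_model (u v : V) (huv : u ≠ v) (G0 : SimpleGraph V) :
    ∃ (A : Finset V) (k : ℕ) (S : SimpleGraph V → Finset V),
      u ∉ A ∧ v ∉ A ∧
      Set.BijOn S {H | RP u v G0 H} (↑(A.powersetCard k)) ∧
      (∀ H, RP u v G0 H → ∀ w z, Dist4 u v w z →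
        (T u v w z H ≠ H ↔ w ∈ A ∧ z ∈ A ∧ ((w ∈ S H) ≠ (z ∈ S H)))) ∧
      (∀ H, RP u v G0 H → ∀ w z, Dist4 u v w z → w ∈ S H → z ∈ A → z ∉ S H →
        S (T u v w z H) = insert z ((S H).erase w)) := by
  refine ⟨free u v G0, (side u (free u v G0) G0).card, side u (free u v G0), ?_, ?_,
    ⟨?_, ?_, ?_⟩, ?_, ?_⟩
  · simp [free]
  · simp [free]
  · intro H hH
    rw [Finset.mem_coe, Finset.mem_powersetCard]
    exact ⟨Finset.filter_subset _ _, (rp_card huv hH).1⟩
  · intro H hH H' hH' hs
    exact rp_inj huv hH hH' hs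
  · intro s hs
    rw [Finset.mem_coe, Finset.mem_powersetCard] at hs
    exact rp_surj huv G0 s hs.1 hs.2
  · intro H hH w z hd
    exact T_ne_iff huv hH w z hd
  · intro H hH w z hd hw hz hz'
    exact side_T huv hH w z hd hw hz hz'

end Vale.Agent.H86
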